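import Vale.Agent.P043.Main
import Vale.Agent.P043.EMain

/-!
P043: in every dimension `d ≥ 4` both forms (discrete and Euclidean) of the periodic tiling
conjecture fail.
-/

namespace Vale.Agent.Results.P043.AllDimGeFour

open MeasureTheory

/-- `A ⊕ F = G`: every `g` has a unique expression `g = a + f` with `a ∈ A` and `f ∈ F`. -/
def IsTiling {G : Type} [AddCommGroup G] (A : Set G) (F : Finset G) : Prop :=
  ∀ g : G, ∃! p : G × G, p.1 ∈ A ∧ p.2 ∈ F ∧ p.1 + p.2 = g

/-- `A + h = A` for every `h` in some subgroup of finite index. -/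
def IsPeriodic {G : Type} [AddCommGroup G] (A : Set G) : Prop :=
  ∃ K : AddSubgroup G, K.FiniteIndex ∧ ∀ h ∈ K, (fun x => x + h) '' A = A

/-- the translates `Ω + a`, `a ∈ A`, cover `ℝ^d` up to a null set and pairwise intersect in
null sets. -/
def TilesBy {d : ℕ} (Ω A : Set (Fin d → ℝ)) : Prop :=
  volume (⋃ a ∈ A, (fun x => x + a) '' Ω)ᶜ = 0 ∧
    ∀ a ∈ A, ∀ b ∈ A, a ≠ b → volume (((fun x => x + a) '' Ω) ∩ ((fun x => x + b) '' Ω)) = 0

/-- `A` is invariant under a lattice of rank `d`, i.e. under the `ℤ`-span of a basis of `ℝ^d`. -/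
def IsLatticePeriodic {d : ℕ} (A : Set (Fin d → ℝ)) : Prop :=
  ∃ b : Module.Basis (Fin d) ℝ (Fin d → ℝ),
    ∀ v ∈ AddSubgroup.closure (Set.range b), (fun x => x + v) '' A = A

theorem image_add {G : Type} [AddCommGroup G] (A : Set G) (h : G)
    (H : (fun x => x + h) '' A = A) (x : G) : x ∈ A ↔ x + h ∈ A := by
  constructor
  · intro hx
    rw [← H]
    exact ⟨x, hx, rfl⟩
  · intro hx
    rw [← H] at hx
    obtain ⟨y, hy, hyx⟩ := hx
    have : y = x := by simpa using hyx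
    rwa [← this]

theorem mem_image_add {G : Type} [AddCommGroup G] (A : Set G) (h x : G) :
    x ∈ (fun x => x + h) '' A ↔ x - h ∈ A := by
  constructor
  · rintro ⟨y, hy, rfl⟩
    simpa using hy
  · intro hx
    exact ⟨x - h, hx, by simp⟩

theorem tilesBy_iff {d : ℕ} (Ω A : Set (Fin d → ℝ)) :
    TilesBy Ω A ↔ _root_.P043.TilesAE A Ω := by
  unfold TilesBy _root_.P043.TilesAE
  apply and_congr
  · rw [ae_iff]
    have : {x : Fin d → ℝ | ¬∃ a ∈ A, x - a ∈ Ω} = (⋃ a ∈ A, (fun x => x + a) '' Ω)ᶜ := by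
      ext x
      simp only [Set.mem_setOf_eq, Set.mem_compl_iff, Set.mem_iUnion, mem_image_add, exists_prop]
    rw [this]
  · have : ∀ a b : Fin d → ℝ, {x : Fin d → ℝ | x - a ∈ Ω ∧ x - b ∈ Ω} =
        ((fun x => x + a) '' Ω) ∩ ((fun x => x + b) '' Ω) := by
      intro a b
      ext x
      simp only [Set.mem_setOf_eq, Set.mem_inter_iff, mem_image_add]
    simp only [this]

/-- For every `d ≥ 4`: there is a finite nonempty `F ⊆ ℤ^d` that tiles `ℤ^d` by translations but has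
no periodic tiling; and there is a bounded measurable set `Ω ⊆ ℝ^d` of positive measure that tiles
`ℝ^d` by translations but has no periodic tiling. -/
theorem result : ∀ d : ℕ, 4 ≤ d →
    (∃ F : Finset (Fin d → ℤ), F.Nonempty ∧ (∃ A : Set (Fin d → ℤ), IsTiling A F) ∧
      ∀ A : Set (Fin d → ℤ), IsTiling A F → ¬ IsPeriodic A) ∧
    (∃ Ω : Set (Fin d → ℝ), Bornology.IsBounded Ω ∧ MeasurableSet Ω ∧ 0 < volume Ω ∧
      (∃ A : Set (Fin d → ℝ), TilesBy Ω A) ∧
      ∀ A : Set (Fin d → ℝ), TilesBy Ω A → ¬ IsLatticePeriodic A) := by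
  intro d hd
  constructor
  · obtain ⟨F, hne, hex, hper⟩ := _root_.P043.final_form (_root_.P043.badFam_all d hd)
    exact ⟨F, hne, hex, fun A hA ⟨K, hK, hKA⟩ =>
      hper A hA ⟨K, hK, fun k hk x => image_add A k (hKA k hk) x⟩⟩
  · obtain ⟨Ω, h1, h2, h3, ⟨A, hA⟩, h5⟩ := _root_.P043.euclid_of_badFam
      (_root_.P043.badFam_all d hd)
    refine ⟨Ω, h1, h2, h3, ⟨A, (tilesBy_iff Ω A).mpr hA⟩, ?_⟩
    rintro B hB ⟨b, hb⟩
    exact h5 B ((tilesBy_iff Ω B).mp hB) ⟨b, fun i x =>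
      image_add B (b i) (hb (b i) (AddSubgroup.subset_closure ⟨i, rfl⟩)) x⟩

end Vale.Agent.Results.P043.AllDimGeFour
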