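import Vale.Agent.P043.Main

/-!
P043: in every dimension `d ≥ 4` the discrete periodic tiling conjecture fails.
-/

namespace Vale.Agent.Results.P043.DiscreteDimGeFour

/-- `A ⊕ F = G`: every `g` has a unique expression `g = a + f` with `a ∈ A` and `f ∈ F`. -/
def IsTiling {G : Type} [AddCommGroup G] (A : Set G) (F : Finset G) : Prop :=
  ∀ g : G, ∃! p : G × G, p.1 ∈ A ∧ p.2 ∈ F ∧ p.1 + p.2 = g

/-- `A + h = A` for every `h` in some subgroup of finite index. -/
def IsPeriodic {G : Type} [AddCommGroup G] (A : Set G) : Prop :=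
  ∃ K : AddSubgroup G, K.FiniteIndex ∧ ∀ h ∈ K, (fun x => x + h) '' A = A

/-- For every `d ≥ 4` there is a finite nonempty `F ⊆ ℤ^d` that tiles `ℤ^d` by translations, but
none of whose tilings is periodic. -/
theorem result : ∀ d : ℕ, 4 ≤ d →
    ∃ F : Finset (Fin d → ℤ), F.Nonempty ∧ (∃ A : Set (Fin d → ℤ), IsTiling A F) ∧
      ∀ A : Set (Fin d → ℤ), IsTiling A F → ¬ IsPeriodic A := by
  intro d hd
  obtain ⟨F, hne, hex, hper⟩ := _root_.P043.final_form (_root_.P043.badFam_all d hd)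
  refine ⟨F, hne, hex, fun A hA ⟨K, hK, hKA⟩ => hper A hA ⟨K, hK, fun k hk x => ?_⟩⟩
  have h1 := hKA k hk
  constructor
  · intro hx
    rw [← h1]
    exact ⟨x, hx, rfl⟩
  · intro hx
    rw [← h1] at hx
    obtain ⟨y, hy, hyx⟩ := hx
    have : y = x := by simpa using hyx
    rwa [← this]

end Vale.Agent.Results.P043.DiscreteDimGeFour
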